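import Mathlib

/-! Combinatorial core for the ordered matrix pattern lower bound: the pattern, the abstract
elements, the adjacency relation and the arithmetic of dyadic threshold blocks. -/

namespace Crest.Agent.OrdMat

/-- the pattern on natural-number indices -/
def Hn (i j : ℕ) : Prop :=
  if i < 63 then (if j < 63 then i + j ≤ 62 else (j = 63 ∧ i ≠ 0))
  else if j < 63 then (i = 63 ∧ j ≠ 0) else ¬ (i = 65 ∧ j = 65)

instance (i j : ℕ) : Decidable (Hn i j) := by unfold Hn; infer_instance

/-- the 66 × 66 pattern -/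
def H (i j : Fin 66) : Bool := decide (Hn i j)

lemma Hn_symm (i j : ℕ) : Hn i j ↔ Hn j i := by
  unfold Hn; split_ifs <;> omega

lemma H_symm (i j : Fin 66) : H i j = H j i := by
  unfold H; simp only [decide_eq_decide]; exact Hn_symm _ _

lemma H_decr (i j : Fin 66) (hij : i < j) : ∃ k : Fin 66, Hn i k ∧ ¬ Hn j k := by
  have hi := i.2
  have hj := j.2
  have hij' : i.val < j.val := hij
  by_cases h1 : j.val < 63
  · refine ⟨⟨62 - i.val, by omega⟩, ?_, ?_⟩ <;> unfold Hn <;> simp only <;> split_ifs <;> omega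
  · by_cases h2 : i.val < 63
    · refine ⟨⟨0, by omega⟩, ?_, ?_⟩ <;> unfold Hn <;> simp only <;> split_ifs <;> omega
    · by_cases h3 : i.val = 63
      · refine ⟨⟨1, by omega⟩, ?_, ?_⟩ <;> unfold Hn <;> simp only <;> split_ifs <;> omega
      · have e1 : i.val = 64 := by omega
        have e2 : j.val = 65 := by omega
        refine ⟨⟨65, by omega⟩, ?_, ?_⟩
        · rw [e1]; show Hn 64 65; decide
        · rw [e2]; show ¬ Hn 65 65; decide

/-- abstract rows / columns of the host matrix -/
inductive El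
  | mark (i : ℕ)
  | help (t b k : ℕ)
  | core (s u : ℕ)
  | dummy

/-- the fine dyadic level of step `t` -/
def fl (h t : ℕ) : ℕ := if t < h then h - t - 1 else t - h

/-- parity of the level-`f` prefix -/
def par (f u : ℕ) : ℕ := u / 2 ^ f % 2

/-- threshold block number `t` -/
def thr (h t u v : ℕ) : Prop :=
  if t ≤ h then 2 ^ t ≤ u / 2 ^ (h - t) + v / 2 ^ (h - t) + 1
  else 2 ^ (2 * h - t) ≤ u / 2 ^ (t - h) + v / 2 ^ (t - h)

/-- eligibility of a side (old or new) element for the instance `(t, b)` -/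
def side (h t b s u : ℕ) : Prop :=
  (s = t ∧ (t < h ∨ par (fl h t) u ≠ b)) ∨ (s = t + 2 ∧ (h ≤ t ∨ par (fl h t) u ≠ b))

/-- helper against core -/
def hc (h t b k s u : ℕ) : Prop :=
  if k = 0 then (s = t + 1 ∧ par (fl h t) u = b) else side h t b s u

/-- the host matrix on abstract elements -/
def Adj (h : ℕ) : El → El → Prop
  | .mark i, .mark j => i + j ≤ 62
  | .mark i, .help _ _ k => k < 2 ∧ i ≠ 0
  | .help _ _ k, .mark i => k < 2 ∧ i ≠ 0
  | .help t b k, .help t' b' k' => t = t' ∧ b = b' ∧ ((k = 0 ∧ k' ≠ 0) ∨ (k ≠ 0 ∧ k' = 0))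
  | .help t b k, .core s u => hc h t b k s u
  | .core s u, .help t b k => hc h t b k s u
  | .core s u, .core s' u' => (s' = s + 1 ∧ thr h s u u') ∨ (s = s' + 1 ∧ thr h s' u u')
  | _, _ => False

lemma thr_symm (h t u v : ℕ) : thr h t u v ↔ thr h t v u := by
  unfold thr; split_ifs <;> omega

lemma Adj_symm (h : ℕ) (x y : El) : Adj h x y ↔ Adj h y x := by
  cases x <;> cases y <;> simp only [Adj]
  · omega
  · omega
  · rename_i s u s' u'
    rw [thr_symm h s u u', thr_symm h s' u u']
    tauto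

lemma thr_mono (h t u u' v : ℕ) (huu : u ≤ u') (ht : thr h t u v) : thr h t u' v := by
  unfold thr at *
  split_ifs at * with h1
  · have := Nat.div_le_div_right (c := 2 ^ (h - t)) huu
    omega
  · have := Nat.div_le_div_right (c := 2 ^ (t - h)) huu
    omega

lemma thr_zero (h u v : ℕ) : thr h 0 u v := by
  unfold thr; simp

lemma not_thr_top (h u v : ℕ) (hh : 1 ≤ h) (hu : u < 2 ^ h) (hv : v < 2 ^ h) :
    ¬ thr h (2 * h) u v := by
  unfold thr
  rw [if_neg (by omega)]
  have e1 : 2 * h - h = h := by omega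
  rw [e1, Nat.div_eq_of_lt hu, Nat.div_eq_of_lt hv]
  simp

lemma div_succ (u f : ℕ) : u / 2 ^ (f + 1) = u / 2 ^ f / 2 := by
  rw [Nat.div_div_eq_div_mul, pow_succ]

/-- The intended configuration (old element above new element) is violated only at the middle
step and only on the anti-diagonal. -/
lemma step_fwd (h t b u u' v : ℕ) (hh : 1 ≤ h) (ht : t < 2 * h)
    (hu : u < 2 ^ h) (hu' : u' < 2 ^ h) (hv : v < 2 ^ h)
    (hord : u ≤ u' ∨ t = 0 ∨ t + 1 = 2 * h)
    (hb : par (fl h t) v = b)
    (h1 : t < h ∨ par (fl h t) u ≠ b) (h2 : h ≤ t ∨ par (fl h t) u' ≠ b)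
    (hA : thr h t u v) (hB : ¬ thr h (t + 1) u' v) : t = h ∧ u + v + 1 = 2 ^ h := by
  have hcoarse : u / 2 ^ (fl h t + 1) ≤ u' / 2 ^ (fl h t + 1) := by
    rcases hord with h0 | h0 | h0
    · exact Nat.div_le_div_right h0
    · have : fl h t + 1 = h := by unfold fl; split_ifs <;> omega
      rw [this, Nat.div_eq_of_lt hu]; exact Nat.zero_le _
    · have : fl h t + 1 = h := by unfold fl; split_ifs <;> omega
      rw [this, Nat.div_eq_of_lt hu]; exact Nat.zero_le _
  rw [div_succ, div_succ] at hcoarse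
  unfold par at hb h1 h2
  unfold thr at hA hB
  by_cases c1 : t < h
  · exfalso
    have e0 : fl h t = h - (t + 1) := by unfold fl; rw [if_pos c1]; omega
    have e1 : h - t = h - (t + 1) + 1 := by omega
    rw [if_pos c1.le, e1, div_succ, div_succ] at hA
    rw [if_pos (by omega), pow_succ] at hB
    rw [e0] at hb h2 hcoarse
    omega
  · have e0 : fl h t = t - h := by unfold fl; rw [if_neg c1]
    have e1 : t + 1 - h = t - h + 1 := by omega
    rw [if_neg (by omega), e1, div_succ, div_succ] at hB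
    rw [e0] at hb h1 hcoarse
    by_cases c2 : t = h
    · subst c2
      refine ⟨rfl, ?_⟩
      rw [if_pos le_rfl] at hA
      simp only [Nat.sub_self, pow_zero, Nat.div_one] at hA hb h1 hcoarse hB
      have e2 : 2 ^ t = 2 * 2 ^ (2 * t - (t + 1)) := by
        rw [← pow_succ']; congr 1; omega
      omega
    · exfalso
      rw [if_neg (by omega)] at hA
      have e2 : 2 ^ (2 * h - t) = 2 * 2 ^ (2 * h - (t + 1)) := by
        rw [← pow_succ']; congr 1; omega
      omega

/-- The swapped configuration (new element above old element) is never violated. -/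
lemma step_bwd (h t u u' v : ℕ) (ht : t < 2 * h) (hord : u' ≤ u)
    (hA : thr h (t + 1) u' v) : thr h t u v := by
  have hA' := thr_mono h (t + 1) u' u v hord hA
  unfold thr at hA' ⊢
  by_cases c1 : t < h
  · have e1 : h - t = h - (t + 1) + 1 := by omega
    rw [if_pos c1.le, e1, div_succ, div_succ]
    rw [if_pos (by omega), pow_succ] at hA'
    omega
  · have e1 : t + 1 - h = t - h + 1 := by omega
    rw [if_neg (by omega), e1, div_succ, div_succ] at hA'
    by_cases c2 : t = h
    · subst c2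
      rw [if_pos le_rfl]
      simp only [Nat.sub_self, pow_zero, Nat.div_one] at hA' ⊢
      have e2 : 2 ^ t = 2 * 2 ^ (2 * t - (t + 1)) := by
        rw [← pow_succ']; congr 1; omega
      omega
    · rw [if_neg (by omega)]
      have e2 : 2 ^ (2 * h - t) = 2 * 2 ^ (2 * h - (t + 1)) := by
        rw [← pow_succ']; congr 1; omega
      omega

lemma par_rev (h f w : ℕ) (hf : f < h) (hw : w < 2 ^ h) :
    par f (2 ^ h - 1 - w) ≠ par f w := by
  unfold par
  obtain ⟨k, rfl⟩ : ∃ k, h = f + (k + 1) := ⟨h - f - 1, by omega⟩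
  have hP : 0 < 2 ^ f := by positivity
  set P := 2 ^ f with hPdef
  have e : 2 ^ (f + (k + 1)) = P * (2 * 2 ^ k) := by rw [pow_add, pow_succ']
  rw [e] at hw ⊢
  set M := 2 ^ k
  have h1 := Nat.div_add_mod w P
  have h2 := Nat.mod_lt w hP
  set a := w / P
  set r := w % P
  have ha : a < 2 * M := by
    by_contra hc
    have : P * (2 * M) ≤ P * a := Nat.mul_le_mul_left _ (by omega)
    omega
  have h3 : (P * (2 * M) - 1 - w) / P = 2 * M - 1 - a := by
    obtain ⟨c, hc⟩ : ∃ c, 2 * M = a + 1 + c := ⟨2 * M - 1 - a, by omega⟩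
    have e2 : P * (2 * M) - 1 - w = (P - 1 - r) + P * c := by
      rw [hc, Nat.mul_add, Nat.mul_add]; omega
    rw [e2, Nat.add_mul_div_left _ _ hP, Nat.div_eq_of_lt (by omega)]
    omega
  rw [h3]; omega

lemma fl_lt (h t : ℕ) (ht : t < 2 * h) : fl h t < h := by
  unfold fl; split_ifs <;> omega

lemma par_lt (f u : ℕ) : par f u < 2 := Nat.mod_lt _ (by norm_num)

end Crest.Agent.OrdMat
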