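import Crest.Agent.OrdMat.Far

/-! Counting the copies of the pattern in the host. -/

namespace Crest.Agent.OrdMat

open Finset

lemma card_pi_two {α : Type} [Fintype α] [DecidableEq α] (M P : Finset α) (hP : P.card ≤ 1)
    (i0 : Fin 66) (hi : i0 ≠ 0) :
    (Fintype.piFinset fun i : Fin 66 => if i = 0 then M else if i = i0 then P else univ).card ≤
      M.card * Fintype.card α ^ 64 := by
  rw [Fintype.card_piFinset, ← Finset.mul_prod_erase univ _ (mem_univ (0 : Fin 66)),
    ← Finset.mul_prod_erase (univ.erase 0) _ (show i0 ∈ univ.erase 0 by simp [hi])]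
  have e : ∏ x ∈ (univ.erase (0 : Fin 66)).erase i0,
      (if x = 0 then M else if x = i0 then P else univ).card = Fintype.card α ^ 64 := by
    rw [Finset.prod_congr rfl (g := fun _ => Fintype.card α), Finset.prod_const,
      Finset.card_erase_of_mem (by simp [hi]), Finset.card_erase_of_mem (by simp)]
    · simp
    · intro x hx
      simp only [mem_erase] at hx
      rw [if_neg hx.2.1, if_neg hx.1, card_univ]
  rw [e, if_pos rfl, if_neg hi, if_pos rfl]
  exact Nat.mul_le_mul_left _ (by nlinarith [Nat.zero_le (Fintype.card α ^ 64)])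

lemma card_pi_one {α : Type} [Fintype α] [DecidableEq α] (P : Finset α) (hP : P.card ≤ 1)
    (i0 : Fin 66) :
    (Fintype.piFinset fun i : Fin 66 => if i = i0 then P else univ).card ≤
      Fintype.card α ^ 65 := by
  rw [Fintype.card_piFinset, ← Finset.mul_prod_erase univ _ (mem_univ i0)]
  have e : ∏ x ∈ univ.erase i0, (if x = i0 then P else univ).card = Fintype.card α ^ 65 := by
    rw [Finset.prod_congr rfl (g := fun _ => Fintype.card α), Finset.prod_const,
      Finset.card_erase_of_mem (by simp)]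
    · simp
    · intro x hx
      simp only [mem_erase] at hx
      rw [if_neg hx.1, card_univ]
  rw [e, if_pos rfl]
  nlinarith [Nat.zero_le (Fintype.card α ^ 65)]

lemma card_single {h : ℕ} (g u : ℕ) :
    (univ.filter fun x : D h => x.g = g ∧ x.u = u).card ≤ 1 := by
  rw [Finset.card_le_one]
  intro x hx y hy
  simp only [mem_filter, mem_univ, true_and] at hx hy
  exact D.ext' (by omega) (by omega)

lemma card_markers {h : ℕ} : (univ.filter fun x : D h => x.g < 63).card ≤ 63 * 2 ^ h := by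
  have := Finset.card_le_card_of_injOn (s := univ.filter fun x : D h => x.g < 63)
    (t := range 63 ×ˢ range (2 ^ h)) (fun x => (x.g, x.u))
    (by
      intro x hx
      simp only [coe_filter, mem_univ, true_and, Set.mem_ofPred_eq] at hx
      simp only [coe_product, coe_range, Set.mem_prod, Set.mem_Iio]
      exact ⟨hx, x.u_lt⟩)
    (by
      intro x _ y _ hxy
      simp only [Prod.mk.injEq] at hxy
      exact D.ext' hxy.1 hxy.2)
  simpa using this

/-- markers -/
noncomputable def MM (h : ℕ) : Finset (D h) := univ.filter fun x : D h => x.g < 63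
/-- a single index -/
noncomputable def PP (h g u : ℕ) : Finset (D h) := univ.filter fun x : D h => x.g = g ∧ x.u = u

lemma mem_MM {h : ℕ} (x : D h) : x ∈ MM h ↔ x.g < 63 := by simp [MM]
lemma mem_PP {h g u : ℕ} (x : D h) : x ∈ PP h g u ↔ x.g = g ∧ x.u = u := by simp [PP]

/-- boxes of index tuples -/
noncomputable def box2 (h : ℕ) (i0 : Fin 66) (g u : ℕ) : Finset (Fin 66 → D h) :=
  Fintype.piFinset fun i : Fin 66 => if i = 0 then MM h else if i = i0 then PP h g u else univ
/-- boxes of index tuples -/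
noncomputable def box1 (h : ℕ) (i0 : Fin 66) (g u : ℕ) : Finset (Fin 66 → D h) :=
  Fintype.piFinset fun i : Fin 66 => if i = i0 then PP h g u else univ

lemma mem_box2 {h : ℕ} (i0 : Fin 66) (g u : ℕ) (r : Fin 66 → D h) (h0 : (r 0).g < 63)
    (h1 : (r i0).g = g) (h2 : (r i0).u = u) : r ∈ box2 h i0 g u := by
  unfold box2
  rw [Fintype.mem_piFinset]
  intro i
  by_cases c1 : i = 0
  · rw [if_pos c1, c1, mem_MM]; exact h0
  · rw [if_neg c1]
    by_cases c2 : i = i0
    · rw [if_pos c2, c2, mem_PP]; exact ⟨h1, h2⟩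
    · rw [if_neg c2]; exact mem_univ _

lemma mem_box1 {h : ℕ} (i0 : Fin 66) (g u : ℕ) (r : Fin 66 → D h)
    (h1 : (r i0).g = g) (h2 : (r i0).u = u) : r ∈ box1 h i0 g u := by
  unfold box1
  rw [Fintype.mem_piFinset]
  intro i
  by_cases c2 : i = i0
  · rw [if_pos c2, c2, mem_PP]; exact ⟨h1, h2⟩
  · rw [if_neg c2]; exact mem_univ _

lemma card_box2 (h : ℕ) (i0 : Fin 66) (hi : i0 ≠ 0) (g u : ℕ) :
    (box2 h i0 g u).card ≤ 63 * 2 ^ h * Fintype.card (D h) ^ 64 :=
  (card_pi_two (MM h) (PP h g u) (card_single _ _) i0 hi).trans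
    (Nat.mul_le_mul_right _ card_markers)

lemma card_box1 (h : ℕ) (i0 : Fin 66) (g u : ℕ) :
    (box1 h i0 g u).card ≤ Fintype.card (D h) ^ 65 :=
  card_pi_one (PP h g u) (card_single _ _) i0

lemma arith (N n : ℕ) (hn : 126 * N ≤ n) :
    63 * N * n ^ 64 * n ^ 65 + 63 * N * n ^ 64 * n ^ 65 ≤ n ^ 130 := by
  have e : 63 * N * n ^ 64 * n ^ 65 + 63 * N * n ^ 64 * n ^ 65 = (126 * N) * n ^ 129 := by ring
  rw [e, pow_succ' n 129]
  exact Nat.mul_le_mul_right _ hn

open Classical in
/-- the tuples passing through the anti-diagonal at label `u` -/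
noncomputable def SS (h u : ℕ) : Finset ((Fin 66 → D h) × (Fin 66 → D h)) :=
  (box2 h 64 (63 + 12 * h + h) u ×ˢ box1 h 65 (63 + 12 * h + (h + 1)) (2 ^ h - 1 - u)) ∪
  (box2 h 65 (63 + 12 * h + (h + 1)) (2 ^ h - 1 - u) ×ˢ box1 h 64 (63 + 12 * h + h) u)

lemma card_SS (h u : ℕ) (hh : 1 ≤ h) : (SS h u).card ≤ Fintype.card (D h) ^ 130 := by
  unfold SS
  refine (card_union_le _ _).trans ?_
  rw [card_product, card_product]
  refine (Nat.add_le_add
    (Nat.mul_le_mul (card_box2 h 64 (by decide) _ _) (card_box1 h 65 _ _))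
    (Nat.mul_le_mul (card_box2 h 65 (by decide) _ _) (card_box1 h 64 _ _))).trans ?_
  apply arith
  rw [card_D]
  exact Nat.mul_le_mul_right _ (by omega)

lemma mem_SS {h : ℕ} (hh : 1 ≤ h) (r c : Fin 66 → D h) (hp : IsCopy r c) :
    ∃ u, u < 2 ^ h ∧ (r, c) ∈ SS h u := by
  have h0 := hp.zero_marker
  unfold SS
  rcases hp.rigid hh with ⟨q1, q2, q3⟩ | ⟨q1, q2, q3⟩
  · refine ⟨(r 64).u, (r 64).u_lt, mem_union_left _ ?_⟩
    rw [mem_product]
    exact ⟨mem_box2 _ _ _ r h0 q1 rfl, mem_box1 _ _ _ c q2 (by omega)⟩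
  · refine ⟨(c 64).u, (c 64).u_lt, mem_union_right _ ?_⟩
    rw [mem_product]
    exact ⟨mem_box2 _ _ _ r h0 q2 (by omega), mem_box1 _ _ _ c q1 rfl⟩

theorem count_le {h : ℕ} (hh : 1 ≤ h) (T : Finset ((Fin 66 → D h) × (Fin 66 → D h)))
    (hT : ∀ p ∈ T, IsCopy p.1 p.2) : T.card ≤ 2 ^ h * Fintype.card (D h) ^ 130 := by
  classical
  have hsub : T ⊆ (range (2 ^ h)).biUnion (SS h) := by
    rintro ⟨r, c⟩ hp
    obtain ⟨u, h1, h2⟩ := mem_SS hh r c (hT _ hp)
    exact mem_biUnion.2 ⟨u, mem_range.2 h1, h2⟩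
  refine (card_le_card hsub).trans ((card_biUnion_le).trans ?_)
  refine (sum_le_sum fun u _ => card_SS h u hh).trans ?_
  rw [sum_const, card_range, smul_eq_mul]

end Crest.Agent.OrdMat
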