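import Crest.Agent.OrdMat.Rigid

/-! Farness: a matrix agreeing with the host on all trusted cells of one selection contains a
copy of the pattern; the selections use pairwise disjoint trusted cells. -/

namespace Crest.Agent.OrdMat

/-- one index from every group: label `b` in the interleaved groups and `a` elsewhere -/
def sel {h : ℕ} (a b : Fin (2 ^ h)) (g : ℕ) : D h :=
  ((⟨g % (386 * h + 2), Nat.mod_lt _ (by omega)⟩ : Fin (386 * h + 2)),
    if inter h g then b else a)

lemma sel_g {h : ℕ} (a b : Fin (2 ^ h)) (g : ℕ) (hg : g < 386 * h + 2) : (sel a b g).g = g :=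
  Nat.mod_eq_of_lt hg

lemma sel_u {h : ℕ} (a b : Fin (2 ^ h)) (g : ℕ) :
    (sel a b g).u = if inter h g then b.val else a.val := by
  show (if inter h g then b else a).val = _
  split_ifs <;> rfl

lemma sel_lt {h : ℕ} (a b : Fin (2 ^ h)) (g g' : ℕ) (hg : g < g') (hg' : g' < 386 * h + 2) :
    sel a b g < sel a b g' := by
  rw [lt_iff, sel_g _ _ _ hg', sel_g _ _ _ (by omega), sel_u, sel_u]
  by_cases c1 : inter h g <;> by_cases c2 : inter h g' <;> simp [c1, c2, hg]

lemma el_sel {h : ℕ} (a b : Fin (2 ^ h)) (g : ℕ) (hg : g < 386 * h + 2) :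
    el (sel a b g) = dec h g (if inter h g then b.val else a.val) := by
  unfold el; rw [sel_g _ _ _ hg, sel_u]

lemma step_copy {h : ℕ} (hh : 1 ≤ h) (B : D h → D h → Prop) (a b a' b' : Fin (2 ^ h))
    (hbb : b.val + b'.val + 1 = 2 ^ h) (t : ℕ) (ht : t < 2 * h)
    (htr : ∀ g g', g < 386 * h + 2 → g' < 386 * h + 2 → ¬ (inter h g ∧ inter h g') →
      (B (sel a b g) (sel a' b' g') ↔ A (sel a b g) (sel a' b' g')))
    (h1 : B (sel a b (63 + 12 * h + t)) (sel a' b' (63 + 12 * h + (t + 1))))
    (h2 : ¬ B (sel a b (63 + 12 * h + (t + 2))) (sel a' b' (63 + 12 * h + (t + 1)))) :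
    ∃ r c : Fin 66 → D h, StrictMono r ∧ StrictMono c ∧ ∀ i j, B (r i) (c j) ↔ Hn i j := by
  set β := par (fl h t) b'.val with hβ
  have hβ2 : β < 2 := par_lt _ _
  have hpar : par (fl h t) b.val ≠ β := by
    have e : b.val = 2 ^ h - 1 - b'.val := by omega
    rw [e]; exact par_rev h _ _ (fl_lt h t ht) b'.2
  let gr : ℕ → ℕ := fun i => if i < 63 then i else if i = 63 then 63 + 6 * t + 3 * β + 0
    else if i = 64 then 63 + 12 * h + t else 63 + 12 * h + (t + 2)
  let gc : ℕ → ℕ := fun i => if i < 63 then i else if i = 63 then 63 + 6 * t + 3 * β + 1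
    else if i = 64 then 63 + 6 * t + 3 * β + 2 else 63 + 12 * h + (t + 1)
  have gr_lt : ∀ i, gr i < 386 * h + 2 := by
    intro i; simp only [gr]; split_ifs <;> omega
  have gc_lt : ∀ i, gc i < 386 * h + 2 := by
    intro i; simp only [gc]; split_ifs <;> omega
  refine ⟨fun i => sel a b (gr i), fun j => sel a' b' (gc j), ?_, ?_, ?_⟩
  · intro i j hij
    have hij' : i.val < j.val := hij
    have := j.2
    refine sel_lt _ _ _ _ ?_ (gr_lt _)
    simp only [gr]; split_ifs <;> omega
  · intro i j hij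
    have hij' : i.val < j.val := hij
    have := j.2
    refine sel_lt _ _ _ _ ?_ (gc_lt _)
    simp only [gc]; split_ifs <;> omega
  · -- abstract elements of the chosen rows and columns
    have er : ∀ i, i < 66 → (i < 63 ∧ gr i = i ∧ el (sel a b (gr i)) = .mark i) ∨
        (i = 63 ∧ gr i = 63 + 6 * t + 3 * β + 0 ∧ el (sel a b (gr i)) = .help t β 0) ∨
        ((i = 64 ∨ i = 65) ∧ ∃ s u, el (sel a b (gr i)) = .core s u ∧ side h t β s u) := by
      intro i hi
      rw [el_sel _ _ _ (gr_lt i)]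
      by_cases c1 : i < 63
      · left
        have : gr i = i := by simp only [gr]; rw [if_pos c1]
        rw [this]; exact ⟨c1, rfl, dec_mark _ _ _ c1⟩
      by_cases c2 : i = 63
      · right; left
        have : gr i = 63 + 6 * t + 3 * β + 0 := by simp only [gr]; rw [if_neg c1, if_pos c2]
        rw [this]; exact ⟨c2, rfl, dec_help _ _ _ _ _ ht hβ2 (by norm_num)⟩
      right; right
      refine ⟨by omega, ?_⟩
      by_cases c3 : i = 64
      · have : gr i = 63 + 12 * h + t := by simp only [gr]; rw [if_neg c1, if_neg c2, if_pos c3]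
        rw [this]
        refine ⟨_, _, dec_core _ _ _ (by omega), Or.inl ⟨rfl, ?_⟩⟩
        by_cases c4 : t < h
        · exact Or.inl c4
        · right; rw [if_pos (by unfold inter; omega)]; exact hpar
      · have : gr i = 63 + 12 * h + (t + 2) := by
          simp only [gr]; rw [if_neg c1, if_neg c2, if_neg c3]
        rw [this]
        refine ⟨_, _, dec_core _ _ _ (by omega), Or.inr ⟨rfl, ?_⟩⟩
        by_cases c4 : h ≤ t
        · exact Or.inl c4
        · right; rw [if_pos (by unfold inter; omega)]; exact hpar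
    have ec : ∀ j, j < 66 → (j < 63 ∧ gc j = j ∧ el (sel a' b' (gc j)) = .mark j) ∨
        (j = 63 ∧ gc j = 63 + 6 * t + 3 * β + 1 ∧ el (sel a' b' (gc j)) = .help t β 1) ∨
        (j = 64 ∧ gc j = 63 + 6 * t + 3 * β + 2 ∧ el (sel a' b' (gc j)) = .help t β 2) ∨
        (j = 65 ∧ el (sel a' b' (gc j)) = .core (t + 1) b'.val) := by
      intro j hj
      rw [el_sel _ _ _ (gc_lt j)]
      by_cases c1 : j < 63
      · left
        have : gc j = j := by simp only [gc]; rw [if_pos c1]
        rw [this]; exact ⟨c1, rfl, dec_mark _ _ _ c1⟩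
      by_cases c2 : j = 63
      · right; left
        have : gc j = 63 + 6 * t + 3 * β + 1 := by simp only [gc]; rw [if_neg c1, if_pos c2]
        rw [this]; exact ⟨c2, rfl, dec_help _ _ _ _ _ ht hβ2 (by norm_num)⟩
      by_cases c3 : j = 64
      · right; right; left
        have : gc j = 63 + 6 * t + 3 * β + 2 := by
          simp only [gc]; rw [if_neg c1, if_neg c2, if_pos c3]
        rw [this]; exact ⟨c3, rfl, dec_help _ _ _ _ _ ht hβ2 (by norm_num)⟩
      · right; right; right
        have : gc j = 63 + 12 * h + (t + 1) := by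
          simp only [gc]; rw [if_neg c1, if_neg c2, if_neg c3]
        rw [this, if_pos (by unfold inter; omega)]
        exact ⟨by omega, dec_core _ _ _ (by omega)⟩
    intro i j
    show B (sel a b (gr i)) (sel a' b' (gc j)) ↔ Hn i j
    by_cases s1 : i.val = 64 ∧ j.val = 65
    · have e1 : gr i = 63 + 12 * h + t := by simp only [gr, s1.1]; norm_num
      have e2 : gc j = 63 + 12 * h + (t + 1) := by simp only [gc, s1.2]; norm_num
      rw [e1, e2, s1.1, s1.2]
      exact iff_of_true h1 (by decide)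
    by_cases s2 : i.val = 65 ∧ j.val = 65
    · have e1 : gr i = 63 + 12 * h + (t + 2) := by simp only [gr, s2.1]; norm_num
      have e2 : gc j = 63 + 12 * h + (t + 1) := by simp only [gc, s2.2]; norm_num
      rw [e1, e2, s2.1, s2.2]
      exact iff_of_false h2 (by decide)
    have hi := er i.val i.2
    have hj := ec j.val j.2
    rw [htr _ _ (gr_lt _) (gc_lt _) (by unfold inter; omega)]
    unfold A
    rcases hi with ⟨p1, p2, p3⟩ | ⟨p1, p2, p3⟩ | ⟨p1, s, u, p3, p4⟩ <;>
    rcases hj with ⟨q1, q2, q3⟩ | ⟨q1, q2, q3⟩ | ⟨q1, q2, q3⟩ | ⟨q1, q3⟩ <;>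
    rw [p3, q3] <;> simp only [Adj, hc, Hn] <;>
    first
      | (exfalso; omega)
      | (split_ifs <;> first | omega | (simp_all <;> omega))

lemma exists_flip (z : ℕ → Prop) (n : ℕ) (h0 : z 0) (hn : ¬ z n) :
    ∃ t, t < n ∧ z t ∧ ¬ z (t + 1) := by
  induction n with
  | zero => exact absurd h0 hn
  | succ n ih =>
    by_cases hz : z n
    · exact ⟨n, by omega, hz, hn⟩
    · obtain ⟨t, h1, h2⟩ := ih hz
      exact ⟨t, by omega, h2⟩

lemma sel_copy {h : ℕ} (hh : 1 ≤ h) (B : D h → D h → Prop) (a b a' b' : Fin (2 ^ h))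
    (hbb : b.val + b'.val + 1 = 2 ^ h)
    (htr : ∀ g g', g < 386 * h + 2 → g' < 386 * h + 2 → ¬ (inter h g ∧ inter h g') →
      (B (sel a b g) (sel a' b' g') ↔ A (sel a b g) (sel a' b' g'))) :
    ∃ r c : Fin 66 → D h, StrictMono r ∧ StrictMono c ∧ ∀ i j, B (r i) (c j) ↔ Hn i j := by
  let z : ℕ → Prop := fun t =>
    if t % 2 = 0 then B (sel a b (63 + 12 * h + t)) (sel a' b' (63 + 12 * h + (t + 1)))
    else B (sel a b (63 + 12 * h + (t + 1))) (sel a' b' (63 + 12 * h + t))
  have z0 : z 0 := by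
    simp only [z, Nat.zero_mod, if_true]
    rw [htr _ _ (by omega) (by omega) (by unfold inter; omega)]
    unfold A
    rw [el_sel _ _ _ (by omega), el_sel _ _ _ (by omega), dec_core _ _ _ (by omega),
      dec_core _ _ _ (by omega)]
    exact Or.inl ⟨rfl, thr_zero _ _ _⟩
  have z1 : ¬ z (2 * h) := by
    simp only [z, Nat.mul_mod_right, if_true]
    rw [htr _ _ (by omega) (by omega) (by unfold inter; omega)]
    unfold A
    rw [el_sel _ _ _ (by omega), el_sel _ _ _ (by omega), dec_core _ _ _ (by omega),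
      dec_core _ _ _ (by omega)]
    rintro (⟨_, q⟩ | ⟨q, _⟩)
    · refine not_thr_top h _ _ hh ?_ ?_ q
      · split_ifs
        · exact b.2
        · exact a.2
      · split_ifs
        · exact b'.2
        · exact a'.2
    · omega
  obtain ⟨t, ht, h1, h2⟩ := exists_flip z _ z0 z1
  by_cases c : t % 2 = 0
  · simp only [z] at h1 h2
    rw [if_pos c] at h1
    rw [if_neg (by omega)] at h2
    exact step_copy hh B a b a' b' hbb t ht htr h1 h2
  · simp only [z] at h1 h2
    rw [if_neg c] at h1
    rw [if_pos (by omega)] at h2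
    obtain ⟨r, c, q1, q2, q3⟩ := step_copy hh (fun x y => B y x) a' b' a b (by omega) t ht
      (fun g g' p1 p2 p3 => by
        rw [A_symm]; exact htr g' g p2 p1 (fun p => p3 ⟨p.2, p.1⟩)) h1 h2
    exact ⟨c, r, q2, q1, fun i j => by rw [Hn_symm]; exact q3 j i⟩

open Classical in
theorem far {h : ℕ} (hh : 1 ≤ h) (B : D h → D h → Prop)
    (hB : ¬ ∃ r c : Fin 66 → D h, StrictMono r ∧ StrictMono c ∧ ∀ i j, B (r i) (c j) ↔ Hn i j) :
    2 ^ h * 2 ^ h ≤
      (Finset.univ.filter fun p : D h × D h => ¬ (B p.1 p.2 ↔ A p.1 p.2)).card := by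
  haveI : NeZero (2 ^ h) := ⟨by positivity⟩
  let lab : D h → Fin (2 ^ h) := fun x => (x : Fin (386 * h + 2) × Fin (2 ^ h)).2
  let φ : D h × D h → Fin (2 ^ h) × Fin (2 ^ h) := fun p =>
    if inter h p.1.g then (lab p.1 - lab p.2, lab p.2)
    else if inter h p.2.g then (lab p.1, (lab p.2).rev - lab p.1) else (lab p.1, lab p.2)
  have hsurj : Set.SurjOn φ
      ↑(Finset.univ.filter fun p : D h × D h => ¬ (B p.1 p.2 ↔ A p.1 p.2))
      ↑(Finset.univ : Finset (Fin (2 ^ h) × Fin (2 ^ h))) := by
    rintro ⟨s, t⟩ -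
    by_contra hc
    apply hB
    refine sel_copy hh B s (s + t) t (s + t).rev ?_ ?_
    · have := (s + t).2
      rw [Fin.val_rev]; omega
    · intro g g' p1 p2 p3
      by_contra hne
      apply hc
      refine ⟨(sel s (s + t) g, sel t (s + t).rev g'), by simpa using hne, ?_⟩
      simp only [φ, sel_g _ _ _ p1, sel_g _ _ _ p2]
      have l1 : lab (sel s (s + t) g) = if inter h g then s + t else s := rfl
      have l2 : lab (sel t (s + t).rev g') = if inter h g' then (s + t).rev else t := rfl
      rw [l1, l2]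
      by_cases c1 : inter h g
      · have c2 : ¬ inter h g' := fun q => p3 ⟨c1, q⟩
        simp [c1, c2]
      · by_cases c2 : inter h g'
        · simp [c1, c2]
        · simp [c1, c2]
  have := Finset.card_le_card_of_surjOn φ hsurj
  simpa using this

end Crest.Agent.OrdMat
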