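import Crest.Agent.OrdMat.Basic

/-! The host index type with its interleaved order, and rigidity of copies of the pattern. -/

namespace Crest.Agent.OrdMat

/-- group index and label -/
def D (h : ℕ) : Type := Fin (386 * h + 2) × Fin (2 ^ h)

instance (h : ℕ) : Fintype (D h) := inferInstanceAs (Fintype (Fin (386 * h + 2) × Fin (2 ^ h)))

lemma card_D (h : ℕ) : Fintype.card (D h) = (386 * h + 2) * 2 ^ h := by
  show Fintype.card (Fin (386 * h + 2) × Fin (2 ^ h)) = _
  simp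

/-- group index as a natural number -/
def D.g {h : ℕ} (x : D h) : ℕ := (x : Fin (386 * h + 2) × Fin (2 ^ h)).1.val
/-- label as a natural number -/
def D.u {h : ℕ} (x : D h) : ℕ := (x : Fin (386 * h + 2) × Fin (2 ^ h)).2.val

lemma D.u_lt {h : ℕ} (x : D h) : x.u < 2 ^ h := (x : Fin (386 * h + 2) × Fin (2 ^ h)).2.2

lemma D.ext' {h : ℕ} {x y : D h} (h1 : x.g = y.g) (h2 : x.u = y.u) : x = y :=
  Prod.ext (Fin.ext h1) (Fin.ext h2)

/-- the interleaved groups -/
def inter (h g : ℕ) : Prop := 63 + 12 * h < g ∧ g ≤ 63 + 14 * h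

instance (h g : ℕ) : Decidable (inter h g) := by unfold inter; infer_instance

/-- zone of a group -/
def zone (h g : ℕ) : ℕ := if g ≤ 63 + 12 * h then 0 else if g ≤ 63 + 14 * h then 1 else 2

/-- sorting key -/
def key {h : ℕ} (x : D h) : ℕ ×ₗ ℕ ×ₗ ℕ :=
  toLex (zone h x.g, toLex (if inter h x.g then x.u else x.g, if inter h x.g then x.g else x.u))

lemma key_inj (h : ℕ) : Function.Injective (key (h := h)) := by
  intro x y hxy
  unfold key at hxy
  simp only [EmbeddingLike.apply_eq_iff_eq, Prod.mk.injEq] at hxy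
  obtain ⟨h1, h2, h3⟩ := hxy
  unfold zone at h1
  unfold inter at h2 h3
  apply D.ext' <;> split_ifs at h1 h2 h3 <;> omega

noncomputable instance (h : ℕ) : LinearOrder (D h) := LinearOrder.lift' key (key_inj h)

lemma lt_iff {h : ℕ} (x y : D h) : x < y ↔
    ((inter h x.g ∧ inter h y.g) ∧ (x.u < y.u ∨ (x.u = y.u ∧ x.g < y.g))) ∨
    (¬ (inter h x.g ∧ inter h y.g) ∧ (x.g < y.g ∨ (x.g = y.g ∧ x.u < y.u))) := by
  show key x < key y ↔ _
  unfold key
  simp only [Prod.Lex.toLex_lt_toLex]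
  have hz : ∀ g, (g ≤ 63 + 12 * h ∧ zone h g = 0) ∨
      (63 + 12 * h < g ∧ g ≤ 63 + 14 * h ∧ zone h g = 1) ∨ (63 + 14 * h < g ∧ zone h g = 2) := by
    intro g
    by_cases c1 : g ≤ 63 + 12 * h
    · left; exact ⟨c1, by unfold zone; rw [if_pos c1]⟩
    by_cases c2 : g ≤ 63 + 14 * h
    · right; left; exact ⟨by omega, c2, by unfold zone; rw [if_neg c1, if_pos c2]⟩
    · right; right; exact ⟨by omega, by unfold zone; rw [if_neg c1, if_neg c2]⟩
  have a1 := hz x.g
  have b1 := hz y.g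
  by_cases c1 : inter h x.g <;> by_cases c2 : inter h y.g <;>
    simp only [c1, c2, if_true, if_false, true_and, and_true, not_true, false_and, or_false,
      and_false, not_false_eq_true, false_or, and_self] <;> unfold inter at c1 c2 <;> omega

/-- decoding of a (group, label) pair -/
def dec (h g u : ℕ) : El :=
  if g < 63 then .mark g
  else if g < 63 + 12 * h then .help ((g - 63) / 6) ((g - 63) / 3 % 2) ((g - 63) % 3)
  else if g ≤ 63 + 14 * h + 1 then .core (g - (63 + 12 * h)) u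
  else .dummy

/-- abstract element of an index -/
def el {h : ℕ} (x : D h) : El := dec h x.g x.u

/-- the host matrix -/
def A {h : ℕ} (x y : D h) : Prop := Adj h (el x) (el y)

lemma A_symm {h : ℕ} (x y : D h) : A x y ↔ A y x := Adj_symm _ _ _

lemma dec_mark (h g u : ℕ) (hg : g < 63) : dec h g u = .mark g := by
  unfold dec; rw [if_pos hg]

lemma dec_help (h t b k u : ℕ) (ht : t < 2 * h) (hb : b < 2) (hk : k < 3) :
    dec h (63 + 6 * t + 3 * b + k) u = .help t b k := by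
  unfold dec
  rw [if_neg (by omega), if_pos (by omega)]
  congr 1 <;> omega

lemma dec_core (h s u : ℕ) (hs : s ≤ 2 * h + 1) :
    dec h (63 + 12 * h + s) u = .core s u := by
  unfold dec
  rw [if_neg (by omega), if_neg (by omega), if_pos (by omega)]
  congr 1; omega

lemma el_cases {h : ℕ} (x : D h) :
    (x.g < 63 ∧ el x = .mark x.g) ∨
    (∃ t b k, t < 2 * h ∧ b < 2 ∧ k < 3 ∧ x.g = 63 + 6 * t + 3 * b + k ∧ el x = .help t b k) ∨
    (∃ s, s ≤ 2 * h + 1 ∧ x.g = 63 + 12 * h + s ∧ el x = .core s x.u) ∨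
    (63 + 14 * h + 1 < x.g ∧ el x = .dummy) := by
  unfold el
  by_cases h1 : x.g < 63
  · left; exact ⟨h1, dec_mark _ _ _ h1⟩
  by_cases h2 : x.g < 63 + 12 * h
  · right; left
    refine ⟨(x.g - 63) / 6, (x.g - 63) / 3 % 2, (x.g - 63) % 3, by omega, by omega, by omega,
      by omega, ?_⟩
    unfold dec; rw [if_neg h1, if_pos h2]
  by_cases h3 : x.g ≤ 63 + 14 * h + 1
  · right; right; left
    refine ⟨x.g - (63 + 12 * h), by omega, by omega, ?_⟩
    unfold dec; rw [if_neg h1, if_neg h2, if_pos h3]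
  · right; right; right
    refine ⟨by omega, ?_⟩
    unfold dec; rw [if_neg h1, if_neg h2, if_neg h3]

/-- level of an element -/
def lev : El → ℕ
  | .help t _ _ => t + 1
  | .core s _ => s
  | _ => 0

/-- local type of an element -/
def typ (h : ℕ) : El → ℕ
  | .help _ b k => 3 * b + k
  | .core s u => 6 + 4 * par (fl h (s - 2)) u + 2 * par (fl h (s - 1)) u + par (fl h s) u
  | _ => 0

lemma hc_congr (h t b k s u u' : ℕ) (hty : typ h (.core s u) = typ h (.core s u'))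
    (hh : hc h t b k s u) : hc h t b k s u' := by
  simp only [typ] at hty
  have p1 := par_lt (fl h (s - 2)) u
  have p2 := par_lt (fl h (s - 1)) u
  have p3 := par_lt (fl h s) u
  have q1 := par_lt (fl h (s - 2)) u'
  have q2 := par_lt (fl h (s - 1)) u'
  have q3 := par_lt (fl h s) u'
  have e1 : par (fl h (s - 2)) u = par (fl h (s - 2)) u' := by omega
  have e2 : par (fl h (s - 1)) u = par (fl h (s - 1)) u' := by omega
  have e3 : par (fl h s) u = par (fl h s) u' := by omega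
  unfold hc side at *
  split_ifs at * with h0
  · obtain ⟨rfl, h2⟩ := hh
    simp only [Nat.add_sub_cancel] at e2
    exact ⟨rfl, e2 ▸ h2⟩
  · rcases hh with ⟨rfl, h2⟩ | ⟨rfl, h2⟩
    · left; exact ⟨rfl, e3 ▸ h2⟩
    · right
      simp only [Nat.add_sub_cancel] at e1
      exact ⟨rfl, e1 ▸ h2⟩

lemma mono_same {h : ℕ} (x y : D h) (hxy : x < y) (hg : x.g = y.g)
    (hty : typ h (el x) = typ h (el y)) (z : D h) (hz : A x z) : A y z := by
  have hu : x.u ≤ y.u := by
    rw [lt_iff] at hxy; omega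
  unfold A at *
  rcases el_cases x with ⟨h1, e1⟩ | ⟨t, b, k, h1, h2, h3, h4, e1⟩ | ⟨s, h1, h2, e1⟩ | ⟨h1, e1⟩
  · have e2 : el y = .mark x.g := by unfold el; rw [← hg]; exact dec_mark _ _ _ h1
    rw [e2]; rw [e1] at hz; exact hz
  · have e2 : el y = .help t b k := by unfold el; rw [← hg, h4]; exact dec_help _ _ _ _ _ h1 h2 h3
    rw [e2]; rw [e1] at hz; exact hz
  · have e2 : el y = .core s y.u := by unfold el; rw [← hg, h2]; exact dec_core _ _ _ h1
    rw [e2] at hty ⊢; rw [e1] at hz hty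
    cases hel : el z with
    | mark i => rw [hel] at hz; simp [Adj] at hz
    | dummy => rw [hel] at hz; simp [Adj] at hz
    | help t b k => rw [hel] at hz; simp only [Adj] at hz ⊢; exact hc_congr _ _ _ _ _ _ _ hty hz
    | core s' v =>
      rw [hel] at hz; simp only [Adj] at hz ⊢
      rcases hz with ⟨a1, a2⟩ | ⟨a1, a2⟩
      · exact Or.inl ⟨a1, thr_mono _ _ _ _ _ hu a2⟩
      · exact Or.inr ⟨a1, thr_mono _ _ _ _ _ hu a2⟩
  · rw [e1] at hz
    cases hel : el z <;> rw [hel] at hz <;> simp [Adj] at hz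

lemma typ_lt {h : ℕ} (x : D h) : typ h (el x) < 14 := by
  rcases el_cases x with ⟨h1, e1⟩ | ⟨t, b, k, h1, h2, h3, h4, e1⟩ | ⟨s, h1, h2, e1⟩ | ⟨h1, e1⟩
  · rw [e1]; simp [typ]
  · rw [e1]; simp only [typ]; omega
  · rw [e1]; simp only [typ]
    have p1 := par_lt (fl h (s - 2)) x.u
    have p2 := par_lt (fl h (s - 1)) x.u
    have p3 := par_lt (fl h s) x.u
    omega
  · rw [e1]; simp [typ]

lemma lev_close {h : ℕ} (x z : D h) (hx : 63 ≤ x.g) (hz : 63 ≤ z.g) (hA : A x z) :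
    x.g ≤ 63 + 14 * h + 1 ∧ lev (el x) ≤ lev (el z) + 1 ∧ lev (el z) ≤ lev (el x) + 1 := by
  unfold A at hA
  rcases el_cases x with ⟨h1, e1⟩ | ⟨t, b, k, h1, h2, h3, h4, e1⟩ | ⟨s, h1, h2, e1⟩ | ⟨h1, e1⟩ <;>
  rcases el_cases z with ⟨g1, f1⟩ | ⟨t', b', k', g1, g2, g3, g4, f1⟩ | ⟨s', g1, g2, f1⟩ | ⟨g1, f1⟩ <;>
  rw [e1, f1] at hA ⊢ <;> simp only [Adj, lev, hc, side] at hA ⊢ <;>
  first | omega | (split_ifs at hA <;> omega)

lemma g_eq_of {h : ℕ} (x y : D h) (hx : 63 ≤ x.g) (hy : 63 ≤ y.g)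
    (hx' : x.g ≤ 63 + 14 * h + 1) (hy' : y.g ≤ 63 + 14 * h + 1)
    (hl : lev (el x) = lev (el y)) (ht : typ h (el x) = typ h (el y)) : x.g = y.g := by
  rcases el_cases x with ⟨h1, e1⟩ | ⟨t, b, k, h1, h2, h3, h4, e1⟩ | ⟨s, h1, h2, e1⟩ | ⟨h1, e1⟩ <;>
  rcases el_cases y with ⟨g1, f1⟩ | ⟨t', b', k', g1, g2, g3, g4, f1⟩ | ⟨s', g1, g2, f1⟩ | ⟨g1, f1⟩ <;>
  rw [e1, f1] at hl ht <;> simp only [lev, typ] at hl ht <;> omega

end Crest.Agent.OrdMat
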