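import Crest.Agent.OrdMat.Host

/-! Rigidity: every ordered copy of the pattern in the host passes through the anti-diagonal of
the middle block. -/

namespace Crest.Agent.OrdMat

/-- an ordered copy of the pattern in the host -/
structure IsCopy {h : ℕ} (r c : Fin 66 → D h) : Prop where
  hr : StrictMono r
  hcol : StrictMono c
  hA : ∀ i j, A (r i) (c j) ↔ Hn i j

lemma IsCopy.symm {h : ℕ} {r c : Fin 66 → D h} (H : IsCopy r c) : IsCopy c r :=
  ⟨H.hcol, H.hr, fun i j => by rw [A_symm, H.hA, Hn_symm]⟩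

lemma IsCopy.distinct {h : ℕ} {r c : Fin 66 → D h} (H : IsCopy r c) (i j : Fin 66) (hij : i < j)
    (hg : (r i).g = (r j).g) (ht : typ h (el (r i)) = typ h (el (r j))) : False := by
  obtain ⟨k, h1, h2⟩ := H_decr i j hij
  exact h2 ((H.hA j k).1 (mono_same _ _ (H.hr hij) hg ht _ ((H.hA i k).2 h1)))

lemma g_le_of_lt {h : ℕ} {x y : D h} (hxy : x < y) (hy : y.g < 63) : x.g ≤ y.g := by
  rw [lt_iff] at hxy; unfold inter at hxy; omega

lemma IsCopy.marker_idx {h : ℕ} {r c : Fin 66 → D h} (H : IsCopy r c) :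
    ∀ (j : ℕ) (hj : j < 66), (r ⟨j, hj⟩).g < 63 → j ≤ (r ⟨j, hj⟩).g := by
  intro j
  induction j with
  | zero => intro _ _; exact Nat.zero_le _
  | succ j ih =>
    intro hj hm
    have hlt : (⟨j, by omega⟩ : Fin 66) < ⟨j + 1, hj⟩ := by simp [Fin.lt_def]
    have h1 := g_le_of_lt (H.hr hlt) hm
    have h2 := ih (by omega) (by omega)
    have h3 : (r ⟨j, by omega⟩).g ≠ (r ⟨j + 1, hj⟩).g := by
      intro he
      refine H.distinct _ _ hlt he ?_
      unfold el
      rw [dec_mark _ _ _ hm, dec_mark _ _ _ (by omega)]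
      rfl
    omega

lemma IsCopy.nonmarker {h : ℕ} {r c : Fin 66 → D h} (H : IsCopy r c) (j : Fin 66)
    (hj : 63 ≤ j.val) : 63 ≤ (r j).g := by
  by_contra hc
  have := H.marker_idx j.val j.2 (by simpa using hc)
  simp only [Fin.eta] at this
  omega

lemma IsCopy.one_marker {h : ℕ} {r c : Fin 66 → D h} (H : IsCopy r c) : (r 1).g < 63 := by
  by_contra hc
  have hall : ∀ i : Fin 65, 63 ≤ (r i.succ).g := by
    intro i
    by_contra hi
    rcases eq_or_ne i 0 with rfl | hne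
    · exact hc (by simpa using hi)
    · have hlt : (1 : Fin 66) < i.succ := by
        rw [Fin.lt_def]
        have : i.val ≠ 0 := fun h0 => hne (Fin.ext h0)
        simp only [Fin.val_succ, Fin.val_one]; omega
      have := g_le_of_lt (H.hr hlt) (by omega)
      omega
  have hz : 63 ≤ (c 63).g := H.symm.nonmarker 63 (by decide)
  have hadj : ∀ i : Fin 65, A (r i.succ) (c 63) := by
    intro i
    rw [H.hA]
    have := i.2
    show Hn (i.val + 1) 63
    unfold Hn; split_ifs <;> omega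
  let φ : Fin 65 → Fin 42 := fun i =>
    ⟨14 * (lev (el (r i.succ)) % 3) + typ h (el (r i.succ)), by
      have := typ_lt (r i.succ); omega⟩
  have key : ∀ i j : Fin 65, i < j → φ i = φ j → False := by
    intro i j hij he
    have he' : 14 * (lev (el (r i.succ)) % 3) + typ h (el (r i.succ)) =
        14 * (lev (el (r j.succ)) % 3) + typ h (el (r j.succ)) := congrArg Fin.val he
    have t1 := typ_lt (r i.succ)
    have t2 := typ_lt (r j.succ)
    obtain ⟨a1, a2, a3⟩ := lev_close _ _ (hall i) hz (hadj i)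
    obtain ⟨b1, b2, b3⟩ := lev_close _ _ (hall j) hz (hadj j)
    have ht : typ h (el (r i.succ)) = typ h (el (r j.succ)) := by omega
    have hl : lev (el (r i.succ)) = lev (el (r j.succ)) := by omega
    exact H.distinct _ _ (Fin.succ_lt_succ_iff.2 hij)
      (g_eq_of _ _ (hall i) (hall j) a1 b1 hl ht) ht
  obtain ⟨i, j, hne, he⟩ := Fintype.exists_ne_map_eq_of_card_lt φ (by simp)
  rcases lt_or_gt_of_ne hne with hlt | hlt
  · exact key i j hlt he
  · exact key j i hlt he.symm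

lemma IsCopy.zero_marker {h : ℕ} {r c : Fin 66 → D h} (H : IsCopy r c) : (r 0).g < 63 := by
  have h1 := H.one_marker
  have := g_le_of_lt (H.hr (show (0 : Fin 66) < 1 by decide)) h1
  omega

lemma IsCopy.el_one {h : ℕ} {r c : Fin 66 → D h} (H : IsCopy r c) :
    ∃ i, i ≠ 0 ∧ el (r 1) = .mark i := by
  have h1 := H.one_marker
  have h2 := H.marker_idx 1 (by norm_num) h1
  refine ⟨(r 1).g, ?_, dec_mark _ _ _ h1⟩
  have : (r ⟨1, by norm_num⟩).g = (r 1).g := rfl
  omega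

/-- the element in role 63 is a helper of kind 0 or 1 -/
lemma IsCopy.role63 {h : ℕ} {r c : Fin 66 → D h} (H : IsCopy r c) :
    ∃ t b k, t < 2 * h ∧ k < 2 ∧ el (c 63) = .help t b k := by
  obtain ⟨i, hi, e⟩ := H.el_one
  have hA : A (r 1) (c 63) := by rw [H.hA]; decide
  have hz : 63 ≤ (c 63).g := H.symm.nonmarker 63 (by decide)
  unfold A at hA
  rw [e] at hA
  rcases el_cases (c 63) with ⟨h1, e1⟩ | ⟨t, b, k, h1, h2, h3, h4, e1⟩ | ⟨s, h1, h2, e1⟩ | ⟨h1, e1⟩
  · omega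
  · rw [e1] at hA; simp only [Adj] at hA; exact ⟨t, b, k, h1, hA.1, e1⟩
  · rw [e1] at hA; simp [Adj] at hA
  · rw [e1] at hA; simp [Adj] at hA

/-- the elements in roles 64, 65 are kind-2 helpers, core elements or dummies -/
lemma IsCopy.role_late {h : ℕ} {r c : Fin 66 → D h} (H : IsCopy r c) (j : Fin 66)
    (hj : 64 ≤ j.val) :
    (∃ t b, el (c j) = .help t b 2) ∨
    (∃ s, s ≤ 2 * h + 1 ∧ (c j).g = 63 + 12 * h + s ∧ el (c j) = .core s (c j).u) ∨
    el (c j) = .dummy := by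
  obtain ⟨i, hi, e⟩ := H.el_one
  have hA : ¬ A (r 1) (c j) := by
    rw [H.hA]
    show ¬ Hn 1 j.val
    unfold Hn; split_ifs <;> omega
  have hz : 63 ≤ (c j).g := H.symm.nonmarker j (by omega)
  unfold A at hA
  rw [e] at hA
  rcases el_cases (c j) with ⟨h1, e1⟩ | ⟨t, b, k, h1, h2, h3, h4, e1⟩ | ⟨s, h1, h2, e1⟩ | ⟨h1, e1⟩
  · omega
  · rw [e1] at hA; simp only [Adj] at hA
    have : k = 2 := by omega
    subst this
    exact Or.inl ⟨t, b, e1⟩
  · exact Or.inr (Or.inl ⟨s, h1, h2, e1⟩)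
  · exact Or.inr (Or.inr e1)

lemma IsCopy.vertical {h : ℕ} (hh : 1 ≤ h) {r c : Fin 66 → D h} (H : IsCopy r c) (t b : ℕ)
    (ht : t < 2 * h) (e1 : el (r 63) = .help t b 0) (e2 : el (c 63) = .help t b 1) :
    (r 64).g = 63 + 12 * h + h ∧ (c 65).g = 63 + 12 * h + (h + 1) ∧
      (r 64).u + (c 65).u + 1 = 2 ^ h := by
  -- rows 64 and 65 are side elements
  have hside : ∀ j : Fin 66, 64 ≤ j.val → ∃ s, s ≤ 2 * h + 1 ∧ (r j).g = 63 + 12 * h + s ∧
      el (r j) = .core s (r j).u ∧ side h t b s (r j).u := by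
    intro j hj
    have hA : A (r j) (c 63) := by
      rw [H.hA]
      have := j.2
      show Hn j.val 63
      unfold Hn; split_ifs <;> omega
    unfold A at hA
    rw [e2] at hA
    rcases H.symm.role_late j hj with ⟨t', b', f⟩ | ⟨s, h1, h2, f⟩ | f
    · rw [f] at hA; simp [Adj] at hA
    · rw [f] at hA; simp only [Adj, hc] at hA
      exact ⟨s, h1, h2, f, by simpa [hc] using hA⟩
    · rw [f] at hA; simp [Adj] at hA
  obtain ⟨s1, a1, a2, a3, a4⟩ := hside 64 (by decide)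
  obtain ⟨s2, b1, b2, b3, b4⟩ := hside 65 (by decide)
  have hA1 : A (r 63) (c 65) := by rw [H.hA]; decide
  have hA2 : A (r 64) (c 65) := by rw [H.hA]; decide
  have hA3 : ¬ A (r 65) (c 65) := by rw [H.hA]; decide
  have hlt : r 64 < r 65 := H.hr (by decide)
  rw [lt_iff] at hlt
  unfold inter at hlt
  unfold A at hA1 hA2 hA3
  rw [e1] at hA1
  rw [a3] at hA2
  rw [b3] at hA3
  rcases H.role_late 65 (by decide) with ⟨t', b', f⟩ | ⟨s, h1, h2, f⟩ | f
  · exfalso
    rw [f] at hA1 hA3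
    simp only [Adj] at hA1 hA3
    obtain ⟨rfl, rfl, -⟩ := hA1
    apply hA3
    unfold hc; rw [if_neg (by norm_num)]; exact b4
  · rw [f] at hA1 hA2 hA3
    simp only [Adj, hc, if_true] at hA1 hA2 hA3
    obtain ⟨rfl, hb⟩ := hA1
    have u1 := (r 64).u_lt
    have u2 := (r 65).u_lt
    have u3 := (c 65).u_lt
    rcases a4 with ⟨rfl, p1⟩ | ⟨rfl, p1⟩ <;> rcases b4 with ⟨hs2, p2⟩ | ⟨hs2, p2⟩ <;> subst hs2
    · exfalso
      have hA2' : thr h s2 (r 64).u (c 65).u := by
        rcases hA2 with ⟨_, q⟩ | ⟨q, _⟩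
        · exact q
        · omega
      exact hA3 (Or.inl ⟨rfl, thr_mono _ _ _ _ _ (by omega) hA2'⟩)
    · have hA2' : thr h s1 (r 64).u (c 65).u := by
        rcases hA2 with ⟨_, q⟩ | ⟨q, _⟩
        · exact q
        · omega
      have hA3' : ¬ thr h (s1 + 1) (r 65).u (c 65).u := fun q => hA3 (Or.inr ⟨rfl, q⟩)
      obtain ⟨q1, q2⟩ := step_fwd h s1 b (r 64).u (r 65).u (c 65).u hh ht u1 u2 u3 (by omega)
        hb p1 p2 hA2' hA3'
      subst q1
      exact ⟨a2, h2, q2⟩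
    · exfalso
      have hA2' : thr h (s2 + 1) (r 64).u (c 65).u := by
        rcases hA2 with ⟨q, _⟩ | ⟨_, q⟩
        · omega
        · exact q
      exact hA3 (Or.inl ⟨rfl, step_bwd h s2 _ _ _ ht (by omega) hA2'⟩)
    · exfalso
      have hA2' : thr h (t + 1) (r 64).u (c 65).u := by
        rcases hA2 with ⟨q, _⟩ | ⟨_, q⟩
        · omega
        · exact q
      exact hA3 (Or.inr ⟨rfl, thr_mono _ _ _ _ _ (by omega) hA2'⟩)
  · rw [f] at hA1; simp [Adj] at hA1

theorem IsCopy.rigid {h : ℕ} (hh : 1 ≤ h) {r c : Fin 66 → D h} (H : IsCopy r c) :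
    ((r 64).g = 63 + 12 * h + h ∧ (c 65).g = 63 + 12 * h + (h + 1) ∧
      (r 64).u + (c 65).u + 1 = 2 ^ h) ∨
    ((c 64).g = 63 + 12 * h + h ∧ (r 65).g = 63 + 12 * h + (h + 1) ∧
      (c 64).u + (r 65).u + 1 = 2 ^ h) := by
  obtain ⟨t, b, k, ht, hk, e1⟩ := H.role63
  obtain ⟨t', b', k', ht', hk', e2⟩ := H.symm.role63
  have hA : A (r 63) (c 63) := by rw [H.hA]; decide
  unfold A at hA
  rw [e1, e2] at hA
  simp only [Adj] at hA
  obtain ⟨rfl, rfl, hkk⟩ := hA
  rcases hkk with ⟨rfl, q⟩ | ⟨q, rfl⟩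
  · have : k = 1 := by omega
    subst this
    exact Or.inl (H.vertical hh _ _ ht e2 e1)
  · have : k' = 1 := by omega
    subst this
    exact Or.inr (H.symm.vertical hh _ _ ht e1 e2)

end Crest.Agent.OrdMat
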